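import Mathlib
import Vale.Agent.Lib.P028.Final

/-!
P028, weak inhomogeneous Duffin-Schaeffer conjecture: the conjecture holds, for every real
shift, for approximating functions supported on integers with a bounded number of divisors.
-/

open MeasureTheory

/-- For every real shift `γ`, every `ψ : ℕ → [0,∞)` vanishing off the integers with at most `K`
divisors: if `∑ φ(q) ψ(q) / q` diverges then for almost every real `x` there are infinitely many
positive integers `q` such that `|q x - a - γ| < ψ q` for some integer `a`. -/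
theorem Vale.Agent.Results.P028.BoundedDivisors.result (γ : ℝ) (ψ : ℕ → ℝ) (hψ : ∀ q, 0 ≤ ψ q)
    (K : ℕ) (hK : ∀ q, ψ q ≠ 0 → (Nat.divisors q).card ≤ K)
    (hdiv : ¬ Summable (fun q : ℕ => (Nat.totient q : ℝ) / q * ψ q)) :
    ∀ᵐ x : ℝ, {q : ℕ | 0 < q ∧ ∃ a : ℤ, |(q : ℝ) * x - a - γ| < ψ q}.Infinite :=
  Vale.Agent.Lib.P028.bounded_divisors γ ψ hψ K hK hdiv
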