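import Mathlib
import Vale.Agent.Lib.P028.Final

/-!
P028, weak inhomogeneous Duffin-Schaeffer conjecture: a gcd-sum criterion valid for every shift.
-/

open MeasureTheory Filter

/-- For every real shift `γ` and every `ψ : ℕ → [0,1/2]` with `∑ ψ(q) = ∞`: if along infinitely
many `X` the gcd sum `∑_{1 ≤ m < n < X} gcd(m,n) min(ψ(m)/m, ψ(n)/n)` is at most
`C (∑_{q < X} ψ(q))^2`, then for almost every real `x` there are infinitely many positive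
integers `q` such that `|q x - a - γ| < ψ q` for some integer `a`. -/
theorem Vale.Agent.Results.P028.GcdCriterion.result (γ : ℝ) (ψ : ℕ → ℝ) (hψ : ∀ q, 0 ≤ ψ q)
    (hψ2 : ∀ q, ψ q ≤ 1 / 2) (hdiv : ¬ Summable ψ) (C : ℝ)
    (hG : ∃ᶠ X in atTop, ∑ n ∈ Finset.range X, ∑ m ∈ Finset.Ico 1 n,
        ((Nat.gcd m n : ℕ) : ℝ) * min (ψ m / m) (ψ n / n)
      ≤ C * (∑ q ∈ Finset.range X, ψ q) ^ 2) :
    ∀ᵐ x : ℝ, {q : ℕ | 0 < q ∧ ∃ a : ℤ, |(q : ℝ) * x - a - γ| < ψ q}.Infinite :=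
  Vale.Agent.Lib.P028.criterion_gcd γ ψ hψ hψ2 hdiv C hG
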