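import Mathlib
import Vale.Agent.Results.P028.BoundedDivisors
import Vale.Agent.Results.P028.GcdCriterion

/-!
P028, weak inhomogeneous Duffin-Schaeffer conjecture: the two results proved for every real shift,
stated together.
-/

open MeasureTheory Filter

/-- (1) The conjecture holds, for every real shift, for approximating functions supported on integers
with a bounded number of divisors.  (2) A gcd-sum criterion valid for every real shift. -/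
theorem Vale.Agent.Results.P028.AllResults.result :
    (∀ (γ : ℝ) (ψ : ℕ → ℝ), (∀ q, 0 ≤ ψ q) →
      ∀ K : ℕ, (∀ q, ψ q ≠ 0 → (Nat.divisors q).card ≤ K) →
      ¬ Summable (fun q : ℕ => (Nat.totient q : ℝ) / q * ψ q) →
      ∀ᵐ x : ℝ, {q : ℕ | 0 < q ∧ ∃ a : ℤ, |(q : ℝ) * x - a - γ| < ψ q}.Infinite) ∧
    (∀ (γ : ℝ) (ψ : ℕ → ℝ), (∀ q, 0 ≤ ψ q) → (∀ q, ψ q ≤ 1 / 2) → ¬ Summable ψ →
      ∀ C : ℝ, (∃ᶠ X in atTop, ∑ n ∈ Finset.range X, ∑ m ∈ Finset.Ico 1 n,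
        ((Nat.gcd m n : ℕ) : ℝ) * min (ψ m / m) (ψ n / n)
          ≤ C * (∑ q ∈ Finset.range X, ψ q) ^ 2) →
      ∀ᵐ x : ℝ, {q : ℕ | 0 < q ∧ ∃ a : ℤ, |(q : ℝ) * x - a - γ| < ψ q}.Infinite) :=
  ⟨fun γ ψ hψ K hK hdiv => Vale.Agent.Results.P028.BoundedDivisors.result γ ψ hψ K hK hdiv,
   fun γ ψ hψ hψ2 hdiv C hG => Vale.Agent.Results.P028.GcdCriterion.result γ ψ hψ hψ2 hdiv C hG⟩
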